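import Vale.Agent.P121.Defs
import Vale.Agent.P121.Plan

/-!
# No optimal Monge plan for the three-marginal Coulomb transport problem

For every `d ≥ 2` (in particular `d = 3`) there is a probability measure on `ℝ^d`, absolutely
continuous with bounded density and compact support, with finite Kantorovich value for the
three-marginal Coulomb cost, which admits no optimal Monge plan.
-/

namespace Vale.Agent.Results.P121.NoMonge

open MeasureTheory Vale.Agent.P121
open scoped ENNReal NNReal RealInnerProductSpace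

theorem result : ∀ d : ℕ, 2 ≤ d → ∃ μ : Measure (EuclideanSpace ℝ (Fin d)),
    IsProbabilityMeasure μ ∧ μ ≪ volume ∧ (∃ C : ℝ≥0, μ ≤ (C : ℝ≥0∞) • volume) ∧
    (∃ K : Set (EuclideanSpace ℝ (Fin d)), IsCompact K ∧ μ Kᶜ = 0) ∧
    kantorovich μ < ⊤ ∧
    ¬ ∃ T₂ T₃ : EuclideanSpace ℝ (Fin d) → EuclideanSpace ℝ (Fin d), IsOptimalMonge μ T₂ T₃ := by
  intro d hd
  set i0 : Fin d := ⟨0, by omega⟩ with hi0
  set i1 : Fin d := ⟨1, by omega⟩ with hi1
  have hne : i0 ≠ i1 := by simp [hi0, hi1]
  set e : Bool → EuclideanSpace ℝ (Fin d) := fun b =>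
    if b then EuclideanSpace.single i0 (1 : ℝ) else EuclideanSpace.single i1 (1 : ℝ) with he
  have hunit : ∀ f, ‖e f‖ = 1 := by
    intro f
    cases f <;> simp [he]
  have hperp : ⟪e true, e false⟫ = 0 := by
    simp [he, EuclideanSpace.inner_single_left, hne]
  choose q r hF using fun f => exists_isFam (hunit f)
  have hle := mu_le hF
  have hlt : kantorovich (mu q r) < ⊤ :=
    (kantorovich_le hF hperp).trans_lt (ENNReal.mul_lt_top (by norm_num) (lintegral_UU_lt_top hF))
  refine ⟨mu q r, isProbability_mu hF, ?_, hle, ⟨Metric.closedBall 0 2, isCompact_closedBall _ _,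
    mu_compl_closedBall hF⟩, hlt, no_monge hF hperp⟩
  obtain ⟨C, hC⟩ := hle
  exact Measure.absolutelyContinuous_of_le_smul hC

end Vale.Agent.Results.P121.NoMonge
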